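import Crest.Statements.S0079
import Crest.Agent.R057.Snc2_204

set_option autoImplicit false
open Crest Crest.CombinatoricsR

namespace Crest.Agent.S0079

/-- Every finite oriented graph (an irreflexive adjacency relation with no pair of opposite arcs) on a nonempty vertex set has a vertex v whose first out-neighbourhood is no larger than its second out-neighbourhood, the set of vertices other than v that are not out-neighbours of v but are reached from v by a directed path of length two. -/
theorem result
    (V : Type*) [Fintype V] [Nonempty V] (G : Digraph V)
    (hloop : ∀ v, ¬ G.Adj v v) (hopp : ∀ u v, G.Adj u v → ¬ G.Adj v u) :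
    ∃ v : V, Set.ncard {u | G.Adj v u} ≤
      Set.ncard {w | w ≠ v ∧ ¬ G.Adj v w ∧ ∃ u, G.Adj v u ∧ G.Adj u w} := by
  exact Crest.Agent.R057.Snc204.snc V G hloop hopp

end Crest.Agent.S0079
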