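import Crest.Statements.S0132
import Crest.Agent.R100.FinX_800

set_option autoImplicit false
open Crest Crest.AnalysisR

namespace Crest.Agent.S0132

/-- Let `T > 0` and let `f` be a complex-valued function on the additive circle `AddCircle T` (the reals modulo `T`) that is a.e. strongly measurable for the Haar probability measure and satisfies `∫⁻ ‖f‖ₑ * log (2 + ‖f‖) < ⊤`. Then for almost every `x`, the symmetric partial sums over `k` from `-N` to `N` of `fourierCoeff f k • fourier k x` converge to `f x` as `N → ∞` through the natural numbers. -/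
theorem result
    {T : ℝ} [hT : Fact (0 < T)] (f : AddCircle T → ℂ)
    (hf : MeasureTheory.AEStronglyMeasurable f AddCircle.haarAddCircle)
    (hlog : ∫⁻ x, ‖f x‖ₑ * ENNReal.ofReal (Real.log (2 + ‖f x‖)) ∂AddCircle.haarAddCircle < ⊤) :
    ∀ᵐ x ∂AddCircle.haarAddCircle, Filter.Tendsto
      (fun N : ℕ => ∑ k ∈ Finset.Icc (-(N : ℤ)) N, fourierCoeff f k • fourier k x)
      Filter.atTop (nhds (f x)) := by
  exact Crest.Agent.R100.SH3701.result_of_CoreX Crest.Agent.R100.FinX800.coreX f hf hlog

end Crest.Agent.S0132
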