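import Crest.Statements.S0308
import Crest.Agent.R201.Wire_293
import Crest.Agent.R201.NoState_674
import Crest.Agent.R201.EL3_676
import Crest.Agent.R201.CH_238
import Crest.Agent.R201.UNP_795
import Crest.Agent.R201.RG_786

set_option autoImplicit false
open MeasureTheory
open scoped ContDiff ENNReal
open Crest Crest.GeometryTopology

namespace Crest.Agent.S0308

/-- There is an absolute constant `C` such that for every `n ≥ 1`, every probability measure `μ` on Euclidean `n`-space having a Lebesgue density `ρ ≥ 0` that is log-concave (its positive set is convex and `log ρ` is concave there), with mean zero, and every `a > 0` with `∫ exp (⟪x, θ⟫² / a²) dμ ≤ 2` for all unit vectors `θ`, every smooth compactly supported `f` satisfies `∫ f² log f² dμ - (∫ f² dμ) log (∫ f² dμ) ≤ C a² ∫ ‖Df‖² dμ`. -/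
theorem result :
    ∃ C : ℝ, ∀ (n : ℕ), 1 ≤ n →
      ∀ (ρ : EuclideanSpace ℝ (Fin n) → ℝ) (μ : Measure (EuclideanSpace ℝ (Fin n))) (a : ℝ),
        Measurable ρ → (∀ x, 0 ≤ ρ x) → Convex ℝ {x | 0 < ρ x} →
        ConcaveOn ℝ {x | 0 < ρ x} (fun x => Real.log (ρ x)) →
        μ = volume.withDensity (fun x => ENNReal.ofReal (ρ x)) → IsProbabilityMeasure μ →
        ∫ x, x ∂μ = 0 → 0 < a →
        (∀ θ : EuclideanSpace ℝ (Fin n), ‖θ‖ = 1 →
          ∫⁻ x, ENNReal.ofReal (Real.exp (inner ℝ x θ ^ 2 / a ^ 2)) ∂μ ≤ 2) →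
        ∀ f : EuclideanSpace ℝ (Fin n) → ℝ, ContDiff ℝ ∞ f → HasCompactSupport f →
          ∫ x, f x ^ 2 * Real.log (f x ^ 2) ∂μ - (∫ x, f x ^ 2 ∂μ) * Real.log (∫ x, f x ^ 2 ∂μ) ≤
            C * a ^ 2 * ∫ x, ‖fderiv ℝ f x‖ ^ 2 ∂μ := by
  exact Crest.Agent.R201.Fin293.S0308_of_nostate
    (Crest.Agent.R201.Top674.nostate Crest.Agent.R201.RG786.rg_786 Crest.Agent.R201.UNPB795.ns_795
      (Crest.Agent.R201.EL676.el676 Crest.Agent.R201.CH238.ch_238))

end Crest.Agent.S0308
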