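import Crest.Statements.S0380
import Crest.Agent.R246.Fin_656

set_option autoImplicit false
open scoped ContDiff Manifold
open Bundle Crest.GeometryTopology.CoordMetric Crest.GeometryTopology.ChartCurvature Crest.GeometryTopology.SphereImmersion
open Crest Crest.GeometryTopology

namespace Crest.Agent.S0380

/-- Let m ≥ 2, M a compact connected smooth boundaryless m-manifold with a C^∞ Riemannian metric and its path distance, F a C^∞ map into the unit sphere of ℝ^(m+2) inducing the metric. If F is minimal in the sphere (Δ_g F + m F = 0 in charts) and not totally geodesic there, the volume of M counted with multiplicity — its m-dimensional Hausdorff measure normalised as on Euclidean ℝᵐ, μHE[m], not the raw μH[m] — is at least that of a minimal Clifford product Sᵏ(√(k/m)) × Sᵐ⁻ᵏ(√((m−k)/m)), 1 ≤ k < m. -/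
theorem result
    (m : ℕ) (hm : 2 ≤ m)
    (M : Type*) [MetricSpace M] [ChartedSpace (EuclideanSpace ℝ (Fin m)) M]
    [IsManifold 𝓘(ℝ, EuclideanSpace ℝ (Fin m)) ∞ M] [CompactSpace M] [ConnectedSpace M]
    [RiemannianBundle (fun x : M => TangentSpace 𝓘(ℝ, EuclideanSpace ℝ (Fin m)) x)]
    [IsContMDiffRiemannianBundle 𝓘(ℝ, EuclideanSpace ℝ (Fin m)) ∞ (EuclideanSpace ℝ (Fin m))
      (fun x : M => TangentSpace 𝓘(ℝ, EuclideanSpace ℝ (Fin m)) x)]
    [IsRiemannianManifold 𝓘(ℝ, EuclideanSpace ℝ (Fin m)) M] [MeasurableSpace M] [BorelSpace M]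
    (F : M → EuclideanSpace ℝ (Fin (m + 2))) (hF : ContMDiff 𝓘(ℝ, EuclideanSpace ℝ (Fin m)) 𝓘(ℝ, EuclideanSpace ℝ (Fin (m + 2))) ∞ F)
    (hS : ∀ x, ‖F x‖ = 1) (hiso : IsIsometricMap m (m + 2) M F)
    (hmin : IsMinimalInSphere m (m + 2) M F) (hntg : ¬ IsTotallyGeodesicInSphere m (m + 2) M F) :
    ∃ k : ℕ, 1 ≤ k ∧ k < m ∧
      ENNReal.ofReal (cliffordVolume m k) ≤
        MeasureTheory.Measure.euclideanHausdorffMeasure m (Set.univ : Set M) := by
  exact Crest.Agent.R246.Fin656.final m hm M F hF hS hiso hmin hntg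

end Crest.Agent.S0380
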