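-- Statement S0452 (row 298): strong normalisation from weak normalisation for every pure type
-- system. Assembly of the files of `Crest/Agent/R298/`.
import Crest.Statements.S0452
import Crest.Agent.R298.BlockA_488
import Crest.Agent.R298.BlockP_705
import Crest.Agent.R298.BlockT_254

set_option autoImplicit false
open Crest.LogicCS.PTS Crest.LogicCS.PTS.Term
open Crest Crest.LogicCS

namespace Crest.Agent.S0452

/-- For every pure type system — any type of sorts with arbitrary axiom and product-rule relations — if every expression that is legal in some context (the subject or the type of a derivable typing judgment there) is weakly beta-normalizing, then every such expression is strongly beta-normalizing: no infinite sequence of beta steps starts from it. Expressions carry de Bruijn indices and beta steps are allowed in every position, annotations and domains included. -/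
theorem result (S : Type*) (P : Spec S) (h : ∀ (Γ : List (Term S)) (M : Term S), Legal P Γ M → WN M) (Γ : List (Term S)) (M : Term S) (hM : Legal P Γ M) : SN M := by
  exact Crest.Agent.R298.Main865.s0452_of_official Crest.Agent.R298.BlockA488.blockAW
    Crest.Agent.R298.Z254.blockT Crest.Agent.R298.BlockP705.blockP S P h Γ M hM

end Crest.Agent.S0452
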