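import Crest.Statements.S0531
import Crest.Agent.R340.Fin3_249
import Crest.Agent.R340.LQ_249

set_option autoImplicit false
open MeasureTheory
open Crest.MathPhysics.Laughlin
open Crest Crest.MathPhysics

namespace Crest.Agent.S0531

/-- There is N₀ such that for every N ≥ N₀, with q = 3(N-1) flux quanta, the fermionic pair interaction H = Σ_{a<b} P^{(1)}_{ab} (P^{(1)} the projector onto relative angular momentum one, coefficient one per pair) on antisymmetric N-particle states of the (q+1)-orbital lowest Landau level satisfies ⟨ψ, Hψ⟩ ≥ (1/25)(‖ψ‖² - ‖⟨Ψ, ψ⟩‖²/‖Ψ‖²) for every antisymmetric ψ, where Ψ is the Laughlin state Π_{a<b}(z_{a0}z_{b1} - z_{a1}z_{b0})³; that is, H ≥ (1/25)(1 - P_Ψ) on the fermionic sector. -/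
theorem result :
    ∃ N₀ : ℕ, ∀ N : ℕ, N₀ ≤ N →
      ∀ ψ : (Fin N → Fin (3 * (N - 1) + 1)) → ℂ, IsAntisymmetric ψ →
        (1 / 25 : ℝ) * ((star ψ ⬝ᵥ ψ).re -
            ‖star (laughlin (3 * (N - 1)) N) ⬝ᵥ ψ‖ ^ 2 /
              (star (laughlin (3 * (N - 1)) N) ⬝ᵥ laughlin (3 * (N - 1)) N).re) ≤
          (star ψ ⬝ᵥ (interaction (3 * (N - 1)) N).mulVec ψ).re := by
  exact Crest.Agent.R340.Kn249.s0531_of_psd Crest.Agent.R340.LP665.psd8'

end Crest.Agent.S0531
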