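import Crest.Statements.S0533
import Crest.Agent.R340.Fin3_249
import Crest.Agent.R340.LQ_249

set_option autoImplicit false
open MeasureTheory
open Crest.MathPhysics.Laughlin
open Crest Crest.MathPhysics

namespace Crest.Agent.S0533

/-- For every real γ with 0 < γ < 4616733319001/10^14 there is a flux threshold Q₀, not depending on the particle number, such that for every Q ≥ Q₀, every N and every antisymmetric N-particle state ψ of the (Q+1)-orbital lowest Landau level, the fermionic pair interaction H = Σ_{a<b} P^{(1)}_{ab} (projector onto relative angular momentum one, coefficient one per pair) satisfies γ⟨ψ, Hψ⟩ ≤ ⟨ψ, H(Hψ)⟩: H² ≥ γH on each fermionic particle sector, and the spectrum of H lies in {0} ∪ [γ, ∞). -/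
theorem result :
    ∀ γ : ℝ, 0 < γ → γ < 4616733319001 / 10 ^ 14 →
      ∃ Q₀ : ℕ, ∀ Q : ℕ, Q₀ ≤ Q → ∀ N : ℕ,
        ∀ ψ : (Fin N → Fin (Q + 1)) → ℂ, IsAntisymmetric ψ →
          γ * (star ψ ⬝ᵥ (interaction Q N).mulVec ψ).re ≤
            (star ψ ⬝ᵥ (interaction Q N).mulVec ((interaction Q N).mulVec ψ)).re := by
  exact Crest.Agent.R340.Kn249.s0533_of_psd Crest.Agent.R340.LP665.psd8'

end Crest.Agent.S0533
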